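import Vale.Agent.P091.H413.Tree

/-!
# P091, row T8 (exceptional classes): definitions and elementary facts (helper206)

Tree of helper413: nodes are lists of Booleans, the children of `v` are `true :: v` and
`false :: v`; leaves are the lists of length `n`.
-/

set_option autoImplicit false

open Finset Real

noncomputable section

namespace Vale.Agent.P091.T8

open Vale.Agent.P091.H413 (Node S Lf)

/-- position of a node in its level: the leaf `y` is the integer `pos y < 2 ^ n` -/
def pos : Node → ℕ
  | [] => 0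
  | b :: v => 2 * pos v + (if b then 1 else 0)

/-- average over the `2 ^ m` nodes which are `m` levels below `v` -/
def av {𝕜 : Type*} [Field 𝕜] : ℕ → (Node → 𝕜) → Node → 𝕜
  | 0, F, v => F v
  | m + 1, F, v => (av m F (true :: v) + av m F (false :: v)) / 2

/-- the letter `k` (a real frequency) at the leaf `y` -/
def ch (k : ℝ) (y : Node) : ℂ := Complex.exp (2 * π * Complex.I * (k * pos y))

/-! ### averages -/

section av
variable {𝕜 : Type*} [Field 𝕜]

@[simp] theorem av_zero (F : Node → 𝕜) (v : Node) : av 0 F v = F v := rfl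

theorem av_succ (m : ℕ) (F : Node → 𝕜) (v : Node) :
    av (m + 1) F v = (av m F (true :: v) + av m F (false :: v)) / 2 := rfl

theorem av_add (m : ℕ) (F G : Node → 𝕜) (v : Node) :
    av m (fun y => F y + G y) v = av m F v + av m G v := by
  induction m generalizing v with
  | zero => rfl
  | succ m ih => rw [av_succ, av_succ, av_succ, ih, ih]; ring

theorem av_sub (m : ℕ) (F G : Node → 𝕜) (v : Node) :
    av m (fun y => F y - G y) v = av m F v - av m G v := by
  induction m generalizing v with
  | zero => rfl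
  | succ m ih => rw [av_succ, av_succ, av_succ, ih, ih]; ring

theorem av_mul_left (m : ℕ) (c : 𝕜) (F : Node → 𝕜) (v : Node) :
    av m (fun y => c * F y) v = c * av m F v := by
  induction m generalizing v with
  | zero => rfl
  | succ m ih => rw [av_succ, av_succ, ih, ih]; ring

theorem av_mul_right (m : ℕ) (c : 𝕜) (F : Node → 𝕜) (v : Node) :
    av m (fun y => F y * c) v = av m F v * c := by
  induction m generalizing v with
  | zero => rfl
  | succ m ih => rw [av_succ, av_succ, ih, ih]; ring

theorem av_const [CharZero 𝕜] (m : ℕ) (c : 𝕜) (v : Node) : av m (fun _ => c) v = c := by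
  induction m generalizing v with
  | zero => rfl
  | succ m ih => rw [av_succ, ih, ih]; ring

theorem av_zero_fun (m : ℕ) (v : Node) : av m (fun _ => (0 : 𝕜)) v = 0 := by
  induction m generalizing v with
  | zero => rfl
  | succ m ih => rw [av_succ, ih, ih]; ring

theorem av_sum {ι : Type*} (s : Finset ι) (m : ℕ) (F : ι → Node → 𝕜) (v : Node) :
    av m (fun y => ∑ i ∈ s, F i y) v = ∑ i ∈ s, av m (F i) v := by
  classical
  induction s using Finset.induction_on with
  | empty => simp [av_zero_fun]
  | insert i s hi ih =>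
    simp only [Finset.sum_insert hi]
    rw [av_add, ih]

/-- averages depend only on the values `m` levels below -/
theorem av_congr (m : ℕ) {F G : Node → 𝕜} (v : Node)
    (h : ∀ y : Node, v <:+ y → y.length = v.length + m → F y = G y) : av m F v = av m G v := by
  induction m generalizing v with
  | zero => exact h v (List.suffix_refl v) rfl
  | succ m ih =>
    rw [av_succ, av_succ, ih (true :: v), ih (false :: v)]
    · intro y hy hl
      exact h y ((List.suffix_cons false v).trans hy) (by rw [hl, List.length_cons]; ring)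
    · intro y hy hl
      exact h y ((List.suffix_cons true v).trans hy) (by rw [hl, List.length_cons]; ring)

/-- averages in two steps -/
theorem av_av (m k : ℕ) (F : Node → 𝕜) (v : Node) :
    av (m + k) F v = av m (fun w => av k F w) v := by
  induction m generalizing v with
  | zero => simp
  | succ m ih =>
    rw [show m + 1 + k = (m + k) + 1 by ring, av_succ, av_succ, ih, ih]

end av

theorem av_mono (m : ℕ) {F G : Node → ℝ} (v : Node)
    (h : ∀ y : Node, v <:+ y → y.length = v.length + m → F y ≤ G y) : av m F v ≤ av m G v := by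
  induction m generalizing v with
  | zero => exact h v (List.suffix_refl v) rfl
  | succ m ih =>
    rw [av_succ, av_succ]
    have h1 := ih (true :: v) (fun y hy hl =>
      h y ((List.suffix_cons true v).trans hy) (by rw [hl, List.length_cons]; ring))
    have h2 := ih (false :: v) (fun y hy hl =>
      h y ((List.suffix_cons false v).trans hy) (by rw [hl, List.length_cons]; ring))
    linarith

theorem av_nonneg (m : ℕ) {F : Node → ℝ} (v : Node)
    (h : ∀ y : Node, v <:+ y → y.length = v.length + m → 0 ≤ F y) : 0 ≤ av m F v := by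
  have := av_mono m (F := fun _ => (0 : ℝ)) (G := F) v h
  rwa [av_zero_fun] at this

theorem norm_av_le (m : ℕ) (F : Node → ℂ) (v : Node) : ‖av m F v‖ ≤ av m (fun y => ‖F y‖) v := by
  induction m generalizing v with
  | zero => exact le_refl _
  | succ m ih =>
    rw [av_succ, av_succ, norm_div]
    have h1 := ih (true :: v)
    have h2 := ih (false :: v)
    have h3 := norm_add_le (av m F (true :: v)) (av m F (false :: v))
    have h4 : ‖(2 : ℂ)‖ = 2 := by norm_num
    rw [h4]
    linarith

theorem ofReal_av (m : ℕ) (F : Node → ℝ) (v : Node) :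
    ((av m F v : ℝ) : ℂ) = av m (fun y => (F y : ℂ)) v := by
  induction m generalizing v with
  | zero => rfl
  | succ m ih => rw [av_succ, av_succ]; push_cast; rw [ih, ih]

theorem Lf_eq_av (m : ℕ) (F : Node → ℝ) (v : Node) : Lf m F v = av m F v := by
  induction m generalizing v with
  | zero => rfl
  | succ m ih => rw [av_succ, ← ih, ← ih]; rfl

/-! ### letters -/

theorem norm_ch (k : ℝ) (y : Node) : ‖ch k y‖ = 1 := by
  unfold ch
  rw [show 2 * (π : ℂ) * Complex.I * ((k : ℂ) * (pos y : ℂ))
    = ((2 * π * (k * pos y) : ℝ) : ℂ) * Complex.I by push_cast; ring]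
  exact Complex.norm_exp_ofReal_mul_I _

theorem ch_add (k l : ℝ) (y : Node) : ch (k + l) y = ch k y * ch l y := by
  unfold ch
  rw [← Complex.exp_add]
  congr 1
  push_cast
  ring

@[simp] theorem ch_zero (y : Node) : ch 0 y = 1 := by simp [ch]

theorem ch_neg (k : ℝ) (y : Node) : ch (-k) y = (starRingEnd ℂ) (ch k y) := by
  have h : ch k y * ch (-k) y = 1 := by rw [← ch_add, add_neg_cancel, ch_zero]
  have h2 : ch k y * (starRingEnd ℂ) (ch k y) = 1 := by
    rw [Complex.mul_conj, Complex.normSq_eq_norm_sq, norm_ch]; norm_num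
  have h0 : ch k y ≠ 0 := by
    intro h0
    have := norm_ch k y
    rw [h0, norm_zero] at this
    exact zero_ne_one this
  exact mul_left_cancel₀ h0 (h.trans h2.symm)

/-- integers are trivial letters -/
theorem ch_add_int (k : ℝ) (z : ℤ) (y : Node) : ch (k + z) y = ch k y := by
  rw [ch_add]
  have : ch (z : ℝ) y = 1 := by
    unfold ch
    rw [show 2 * (π : ℂ) * Complex.I * (((z : ℝ) : ℂ) * (pos y : ℂ))
      = ((z * (pos y : ℤ) : ℤ) : ℂ) * (2 * π * Complex.I) by push_cast; ring]
    exact Complex.exp_int_mul_two_pi_mul_I _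
  rw [this, mul_one]

/-! ### the `y`-side -/

/-- `n` = depth; `f` = density on the leaves; `τ y` = removal time of the leaf `y`: it is present on
departure from its ancestor of level `j` iff `j < τ y`. -/
structure YD where
  n : ℕ
  f : Node → ℝ
  τ : Node → ℕ

namespace YD
variable (d : YD)

/-- the density which is present on arrival at level `j` = on departure from level `j - 1` -/
def F (j : ℕ) (y : Node) : ℝ := if j ≤ d.τ y then d.f y else 0

/-- mean density on departure -/
def g (v : Node) : ℝ := av (d.n - v.length) (d.F (v.length + 1)) v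

/-- mean density on arrival -/
def ga (v : Node) : ℝ := av (d.n - v.length) (d.F v.length) v

/-- removed density -/
def h (v : Node) : ℝ := d.ga v - d.g v

/-- bias on departure -/
def Bd (k : ℝ) (v : Node) : ℂ :=
  av (d.n - v.length) (fun y => (d.F (v.length + 1) y : ℂ) * ch k y) v

/-- bias on arrival -/
def Ba (k : ℝ) (v : Node) : ℂ :=
  av (d.n - v.length) (fun y => (d.F v.length y : ℂ) * ch k y) v

/-- half difference of the two children -/
def dB (k : ℝ) (v : Node) : ℂ := (d.Ba k (true :: v) - d.Ba k (false :: v)) / 2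

/-- hypotheses: `D ≥ 1`, `0 < ρ ≤ 1` -/
structure Ok (D ρ : ℝ) : Prop where
  f0 : ∀ y, 0 ≤ d.f y
  fD : ∀ y, d.f y ≤ exp D
  gle : ∀ v : Node, v.length ≤ d.n → d.g v ≤ 2
  ga0 : d.ga [] ≤ 2
  rem : ∀ v : Node, v.length ≤ d.n → d.h v = 0 ∨ d.g v = 0 ∨ ρ * d.ga v ≤ d.h v

variable {d} {D ρ : ℝ}

theorem F_nonneg (hd : d.Ok D ρ) (j : ℕ) (y : Node) : 0 ≤ d.F j y := by
  unfold F
  split_ifs
  · exact hd.f0 y
  · exact le_refl _

theorem F_le (hd : d.Ok D ρ) (j : ℕ) (y : Node) : d.F j y ≤ d.f y := by
  unfold F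
  split_ifs
  · exact le_refl _
  · exact hd.f0 y

theorem F_anti (hd : d.Ok D ρ) {i j : ℕ} (hij : i ≤ j) (y : Node) : d.F j y ≤ d.F i y := by
  unfold F
  split_ifs with h1 h2 h2
  · exact le_refl _
  · exact absurd (hij.trans h1) h2
  · exact hd.f0 y
  · exact le_refl _

theorem g_nonneg (hd : d.Ok D ρ) (v : Node) : 0 ≤ d.g v :=
  av_nonneg _ _ fun y _ _ => F_nonneg hd _ y

theorem ga_nonneg (hd : d.Ok D ρ) (v : Node) : 0 ≤ d.ga v :=
  av_nonneg _ _ fun y _ _ => F_nonneg hd _ y

theorem h_nonneg (hd : d.Ok D ρ) (v : Node) : 0 ≤ d.h v := by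
  have : d.g v ≤ d.ga v := av_mono _ _ fun y _ _ => F_anti hd (Nat.le_succ _) y
  unfold h
  linarith

theorem n_sub {n : ℕ} {v : Node} (hv : v.length < n) (b : Bool) :
    n - v.length = (n - (b :: v).length) + 1 := by
  rw [List.length_cons]; omega

theorem g_eq {v : Node} (hv : v.length < d.n) :
    d.g v = (d.ga (true :: v) + d.ga (false :: v)) / 2 := by
  unfold g ga
  rw [n_sub hv true, av_succ]
  rfl

theorem Bd_eq (k : ℝ) {v : Node} (hv : v.length < d.n) :
    d.Bd k v = (d.Ba k (true :: v) + d.Ba k (false :: v)) / 2 := by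
  unfold Bd Ba
  rw [n_sub hv true, av_succ]
  rfl

theorem Ba_true (k : ℝ) {v : Node} (hv : v.length < d.n) :
    d.Ba k (true :: v) = d.Bd k v + d.dB k v := by
  rw [Bd_eq k hv]; unfold dB; ring

theorem Ba_false (k : ℝ) {v : Node} (hv : v.length < d.n) :
    d.Ba k (false :: v) = d.Bd k v - d.dB k v := by
  rw [Bd_eq k hv]; unfold dB; ring

theorem ga_child_le (hd : d.Ok D ρ) {v : Node} (hv : v.length < d.n) (b : Bool) :
    d.ga (b :: v) ≤ 4 := by
  have h1 := hd.gle v hv.le
  rw [g_eq hv] at h1
  have h2 := ga_nonneg hd (true :: v)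
  have h3 := ga_nonneg hd (false :: v)
  cases b <;> linarith

theorem ga_le (hd : d.Ok D ρ) {v : Node} (hv : v.length ≤ d.n) : d.ga v ≤ 4 := by
  rcases v with _ | ⟨b, v⟩
  · have := hd.ga0; linarith
  · exact ga_child_le hd (by rw [List.length_cons] at hv; omega) b

theorem norm_Bd_le (hd : d.Ok D ρ) (k : ℝ) (v : Node) : ‖d.Bd k v‖ ≤ d.g v := by
  refine (norm_av_le _ _ _).trans (av_mono _ _ fun y _ _ => ?_)
  rw [norm_mul, norm_ch, mul_one, Complex.norm_real, norm_of_nonneg (F_nonneg hd _ y)]

theorem norm_Ba_le (hd : d.Ok D ρ) (k : ℝ) (v : Node) : ‖d.Ba k v‖ ≤ d.ga v := by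
  refine (norm_av_le _ _ _).trans (av_mono _ _ fun y _ _ => ?_)
  rw [norm_mul, norm_ch, mul_one, Complex.norm_real, norm_of_nonneg (F_nonneg hd _ y)]

theorem norm_Ba_sub_Bd_le (hd : d.Ok D ρ) (k : ℝ) (v : Node) :
    ‖d.Ba k v - d.Bd k v‖ ≤ d.h v := by
  unfold Ba Bd h ga g
  rw [← av_sub, ← av_sub]
  refine (norm_av_le _ _ _).trans (av_mono _ _ fun y _ _ => ?_)
  rw [← sub_mul, norm_mul, norm_ch, mul_one, ← Complex.ofReal_sub, Complex.norm_real,
    norm_of_nonneg]
  have := F_anti hd (Nat.le_succ v.length) y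
  exact sub_nonneg.2 this

theorem norm_dB_le (hd : d.Ok D ρ) (k : ℝ) {v : Node} (hv : v.length < d.n) :
    ‖d.dB k v‖ ≤ 2 := by
  unfold dB
  rw [norm_div]
  have h1 := norm_Ba_le hd k (true :: v)
  have h2 := norm_Ba_le hd k (false :: v)
  have h3 := norm_sub_le (d.Ba k (true :: v)) (d.Ba k (false :: v))
  have h4 : ‖(2 : ℂ)‖ = 2 := by norm_num
  have h5 := hd.gle v hv.le
  rw [g_eq hv] at h5
  rw [h4]
  linarith

/-- total removed mass -/
theorem S_h_le (hd : d.Ok D ρ) : S d.n d.h [] ≤ 2 := by
  have key : ∀ m : ℕ, ∀ v : Node, v.length + m = d.n → S m d.h v ≤ d.ga v := by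
    intro m
    induction m with
    | zero => intro v _; simp only [S]; exact ga_nonneg hd v
    | succ m ih =>
      intro v hv
      have h1 := ih (true :: v) (by rw [List.length_cons]; omega)
      have h2 := ih (false :: v) (by rw [List.length_cons]; omega)
      have h3 : d.g v = _ := g_eq (d := d) (v := v) (by omega)
      simp only [S]
      have h4 : d.h v = d.ga v - d.g v := rfl
      rw [h4, h3]
      linarith
  exact (key d.n [] (by simp)).trans hd.ga0

end YD

/-! ### the `x`-side -/

/-- classes: start node `st κ`, letter `ξ κ`, mass `a κ y` at the leaf `y` -/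
structure XD (K : Type) where
  st : K → Node
  ξ : K → ℝ
  a : K → Node → ℝ

namespace XD
variable {K : Type} (x : XD K) (n : ℕ)

/-- the class is present at `v` -/
def On (κ : K) (v : Node) : Prop := x.st κ <:+ v

instance (κ : K) (v : Node) : Decidable (x.On κ v) := by unfold On; infer_instance

/-- mass of the class at `v` -/
def α (κ : K) (v : Node) : ℝ := if x.On κ v then av (n - v.length) (x.a κ) v else 0

/-- half difference of the masses in the two children -/
def dα (κ : K) (v : Node) : ℝ :=
  if x.On κ v then (x.α n κ (true :: v) - x.α n κ (false :: v)) / 2 else 0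

structure Ok [Fintype K] : Prop where
  a0 : ∀ κ y, 0 ≤ x.a κ y
  asum : ∀ y, ∑ κ, x.a κ y ≤ 1
  len : ∀ κ, (x.st κ).length ≤ n

variable {x n}

theorem On.cons {κ : K} {v : Node} (h : x.On κ v) (b : Bool) : x.On κ (b :: v) :=
  List.IsSuffix.trans h (List.suffix_cons b v)

variable [Fintype K]

theorem α_nonneg (hx : x.Ok n) (κ : K) (v : Node) : 0 ≤ x.α n κ v := by
  unfold α
  split_ifs
  · exact av_nonneg _ _ fun y _ _ => hx.a0 κ y
  · exact le_refl _

theorem sum_α_le (hx : x.Ok n) (v : Node) : ∑ κ, x.α n κ v ≤ 1 := by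
  have h1 : ∑ κ, x.α n κ v ≤ ∑ κ, av (n - v.length) (x.a κ) v := by
    apply Finset.sum_le_sum
    intro κ _
    unfold α
    split_ifs
    · exact le_refl _
    · exact av_nonneg _ _ fun y _ _ => hx.a0 κ y
  refine h1.trans ?_
  rw [← av_sum]
  have := av_mono (n - v.length) (F := fun y => ∑ κ, x.a κ y) (G := fun _ => (1 : ℝ)) v
    (fun y _ _ => hx.asum y)
  rwa [av_const] at this

theorem α_eq {κ : K} {v : Node} (hv : v.length < n) (hon : x.On κ v) :
    x.α n κ v = (x.α n κ (true :: v) + x.α n κ (false :: v)) / 2 := by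
  unfold α
  rw [if_pos hon, if_pos (hon.cons true), if_pos (hon.cons false), YD.n_sub hv true, av_succ]
  rfl

theorem α_true {κ : K} {v : Node} (hv : v.length < n) (hon : x.On κ v) :
    x.α n κ (true :: v) = x.α n κ v + x.dα n κ v := by
  rw [α_eq hv hon]; unfold dα; rw [if_pos hon]; ring

theorem α_false {κ : K} {v : Node} (hv : v.length < n) (hon : x.On κ v) :
    x.α n κ (false :: v) = x.α n κ v - x.dα n κ v := by
  rw [α_eq hv hon]; unfold dα; rw [if_pos hon]; ring

theorem abs_dα_le (hx : x.Ok n) {κ : K} {v : Node} (hv : v.length < n) :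
    |x.dα n κ v| ≤ x.α n κ v := by
  by_cases hon : x.On κ v
  · have h1 := α_nonneg hx κ (true :: v)
    have h2 := α_nonneg hx κ (false :: v)
    rw [α_true hv hon] at h1
    rw [α_false hv hon] at h2
    exact abs_le.2 ⟨by linarith, by linarith⟩
  · unfold dα
    rw [if_neg hon, abs_zero]
    exact α_nonneg hx κ v

/-- a child carries at most twice the mass -/
theorem α_child_le (hx : x.Ok n) {κ : K} {v : Node} (hv : v.length < n) (hon : x.On κ v)
    (b : Bool) : x.α n κ (b :: v) ≤ 2 * x.α n κ v := by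
  have h := abs_le.1 (abs_dα_le hx (κ := κ) hv)
  cases b
  · rw [α_false hv hon]; linarith
  · rw [α_true hv hon]; linarith

end XD

/-- **Row T8.** -/
def T8 : Prop := ∃ C : ℝ, 0 < C ∧ ∀ (K : Type) [Fintype K] (d : YD) (x : XD K) (b : K → Node → ℝ)
    (D ρ δ ε e1 : ℝ), 1 ≤ D → 0 < ρ → ρ ≤ 1 → 0 < δ → δ ≤ 1 / 4 → 0 ≤ ε → d.Ok D ρ → x.Ok d.n →
    (∀ κ v, 0 ≤ b κ v) → (∀ κ v, b κ v ≤ 1) →
    (∀ v : Node, v.length < d.n → ∑ κ, b κ v * x.α d.n κ v ≤ ε) →
    S d.n (fun v => ∑ κ, x.dα d.n κ v ^ 2 / x.α d.n κ v) [] ≤ e1 →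
    S d.n (fun v => ∑ κ, b κ v * x.α d.n κ v * ‖d.dB (x.ξ κ) v‖ ^ 2) []
      ≤ C * (δ * (1 + e1) + log (1 / δ)) + ε * (D / (δ * ρ)) ^ C

end Vale.Agent.P091.T8

end
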