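import Vale.Agent.P091.T8.Defs

/-!
# P091, row T8: the sub-rows (helper206)

`P_RIESZ` (655), `P_CHAN`, `P_INFO3` (103), `P_INFO1`, `P_INFO2` (937), `P_TOT`, `P_LOW` (862),
`P_CH`, `P_NORMAL`, assembly (206).
-/

set_option autoImplicit false

open Finset Real

noncomputable section

namespace Vale.Agent.P091.T8

open Vale.Agent.P091.H413 (Node S Lf)

/-! ### Riesz lists -/

/-- combinations with coefficients `-1, 0, 1` -/
def Sp : List ℝ → Set ℝ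
  | [] => {0}
  | l :: L => {r | r ∈ Sp L ∨ r - l ∈ Sp L ∨ r + l ∈ Sp L}

/-- length cap of the Riesz list -/
def Mc (D δ : ℝ) : ℕ := ⌈1000 * D / δ ^ 3⌉₊

/-- visibility -/
def c0 (D δ : ℝ) : ℝ := δ / 16 * ((1 - δ / 16) / (1 + δ / 16)) ^ Mc D δ

/-- `N v` = new letters at `v`; `Λ v` = all letters so far; `L v` = the Riesz list at `v`. -/
structure Lists (n : ℕ) (N Λ : Node → List ℝ) : Prop where
  nil : Λ [] = N []
  cons : ∀ (b : Bool) (v : Node), Λ (b :: v) = N (b :: v) ++ Λ v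

def P_RIESZ : Prop := ∀ (K : Type) [Fintype K] (d : YD) (x : XD K) (D ρ δ : ℝ),
  1 ≤ D → 0 < ρ → ρ ≤ 1 → 0 < δ → δ ≤ 1 / 4 → d.Ok D ρ →
  ∃ L N Λ : Node → List ℝ, Lists d.n N Λ ∧
    (∀ v, (L v).Sublist (Λ v)) ∧ (∀ v, (L v).length ≤ Mc D δ) ∧
    (∀ v : Node, v.length < d.n → ∀ κ, x.On κ v → δ ≤ ‖d.Bd (x.ξ κ) v‖ →
      ∃ r ∈ Sp (L v), c0 D δ ≤ ‖av (d.n - v.length) (ch (x.ξ κ + r)) v‖) ∧
    S d.n (fun v => ((N v).length : ℝ)) [] ≤ 1000 * D / (δ ^ 3 * ρ)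

/-! ### labels -/

/-- `e(t)` -/
def ec (t : ℝ) : ℂ := Complex.exp (2 * π * Complex.I * t)

/-- probability of the label `j < M + 2` of the letter `l` at the leaf `y` (Fejer kernel) -/
def w (M : ℕ) (l : ℝ) (j : ℕ) (y : Node) : ℝ :=
  ‖∑ i ∈ range (M + 1), ec (i * (l * pos y - j / (M + 2)))‖ ^ 2 / ((M + 1) * (M + 2))

def P_CHAN : Prop := ∀ (M : ℕ) (l : ℝ) (y : Node),
  (∑ j ∈ range (M + 2), w M l j y = 1) ∧
  (∑ j ∈ range (M + 2), ec (j / (M + 2)) * w M l j y = (M / (M + 1) : ℂ) * ch l y)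

theorem w_nonneg (M : ℕ) (l : ℝ) (j : ℕ) (y : Node) : 0 ≤ w M l j y := by
  unfold w; positivity

/-- iterated sum over the labels of a list -/
def sumW (M : ℕ) : List ℝ → ((Node → ℝ) → ℝ) → (Node → ℝ) → ℝ
  | [], Θ, G => Θ G
  | l :: Λ, Θ, G => ∑ j ∈ range (M + 2), sumW M Λ Θ (fun y => G y * w M l j y)

/-- entropy increment of one digit -/
def psi (x y : ℝ) : ℝ := (x * log x + y * log y) / 2 - (x + y) / 2 * log ((x + y) / 2)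

/-- information between the digit at `v` and the labels of `Λ`, density `G` -/
def JG (M n : ℕ) (Λ : List ℝ) (G : Node → ℝ) (v : Node) : ℝ :=
  sumW M Λ (fun G => psi (av (n - (v.length + 1)) G (true :: v))
    (av (n - (v.length + 1)) G (false :: v))) G

def YD.J (d : YD) (M : ℕ) (Λ : List ℝ) (v : Node) : ℝ := JG M d.n Λ (d.F (v.length + 1)) v

/-- total information -/
def P_INFO1 : Prop := ∀ (d : YD) (D ρ : ℝ) (M : ℕ) (N Λ : Node → List ℝ), d.Ok D ρ →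
  Lists d.n N Λ →
  S d.n (fun v => d.J M (Λ v) v) [] ≤
    20 + 2 * log (M + 2) * S d.n (fun v => ((N v).length : ℝ)) []

/-- increments of represented letters -/
def P_INFO2 : Prop := ∀ (d : YD) (D ρ : ℝ) (M : ℕ) (L Λ : List ℝ) (v : Node) (k r t : ℝ) (z : ℤ),
  1 ≤ M → d.Ok D ρ → v.length < d.n → L.Sublist Λ → L.length ≤ M → r ∈ Sp L → 
  |k + r - z| * 2 ^ (d.n - v.length) ≤ t →
  ‖d.dB k v‖ ≤ 3 * (√(4 * d.g v * d.J M Λ v) + 2 * π * t * d.g v)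

/-- window: the data of `v` are frozen -/
def P_INFO3 : Prop := ∀ (d : YD) (D ρ : ℝ) (M T : ℕ) (N Λ : Node → List ℝ) (v : Node), d.Ok D ρ →
  Lists d.n N Λ → v.length + T ≤ d.n →
  sumW M (Λ v) (fun G => av T (fun u => |av (d.n - u.length) G u - av (d.n - v.length) G v|) v)
      (d.F (v.length + 1))
    ≤ √(4 * d.g v * S T (fun u => d.J M (Λ u) u + T * log 2 * d.h u) v)

/-! ### energies -/

def P_TOT : Prop := ∀ (K : Type) [Fintype K] (d : YD) (x : XD K) (D ρ e1 : ℝ),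
  d.Ok D ρ → x.Ok d.n →
  S d.n (fun v => ∑ κ, x.dα d.n κ v ^ 2 / x.α d.n κ v) [] ≤ e1 →
  S d.n (fun v => ∑ κ, x.α d.n κ v * ‖d.dB (x.ξ κ) v‖ ^ 2) [] ≤ 100 * (1 + e1)

/-- low pairs -/
def Low {K : Type} (d : YD) (x : XD K) (δ : ℝ) (κ : K) (v : Node) : Prop :=
  ‖d.Bd (x.ξ κ) v‖ ≤ 4 * δ ∧ ∀ b : Bool, ‖d.Ba (x.ξ κ) (b :: v)‖ ≤ 4 * δ

open Classical in
def P_LOW : Prop := ∀ (K : Type) [Fintype K] (d : YD) (x : XD K) (D ρ δ e1 : ℝ),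
  0 < δ → d.Ok D ρ → x.Ok d.n →
  S d.n (fun v => ∑ κ, x.dα d.n κ v ^ 2 / x.α d.n κ v) [] ≤ e1 →
  S d.n (fun v => ∑ κ, if Low d x δ κ v then x.α d.n κ v * ‖d.dB (x.ξ κ) v‖ ^ 2 else 0) []
    ≤ 200 * δ * (1 + e1)

/-! ### characters, normal nodes -/

/-- decay of the averages of a letter, `|r| ≤ 1 / 2` -/
def P_CH : Prop := ∀ (m : ℕ) (r : ℝ) (v : Node), |r| ≤ 1 / 2 →
  2 * |r| * 2 ^ m * ‖av m (ch r) v‖ ≤ 1

/-- the letter `k` is represented at `v` up to `t` -/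
def Near (d : YD) (M : ℕ) (Λ : List ℝ) (k : ℝ) (v : Node) (t : ℝ) : Prop :=
  ∃ L : List ℝ, L.Sublist Λ ∧ L.length ≤ M ∧ ∃ r ∈ Sp L, ∃ z : ℤ,
    |k + r - z| * 2 ^ (d.n - v.length) ≤ t

/-- window length -/
def Tw (D δ : ℝ) : ℕ := ⌈Real.logb 2 (200 / (δ * c0 D δ))⌉₊

/-- `v` is normal -/
def Normal (d : YD) (D δ : ℝ) (Λ : Node → List ℝ) (v : Node) : Prop :=
  S (min (Tw D δ) (d.n - v.length))
    (fun u => d.J (Mc D δ) (Λ u) u + Tw D δ * log 2 * d.h u) v ≤ δ ^ 2 / 10000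

def P_NORMAL : Prop := ∀ (d : YD) (D ρ δ : ℝ) (N Λ : Node → List ℝ) (L : List ℝ) (v : Node)
    (k r : ℝ), 1 ≤ D → 0 < δ → δ ≤ 1 / 4 → d.Ok D ρ → Lists d.n N Λ → v.length < d.n →
  L.Sublist (Λ v) → L.length ≤ Mc D δ → r ∈ Sp L →
  c0 D δ ≤ ‖av (d.n - v.length) (ch (k + r)) v‖ → δ ≤ ‖d.Bd k v‖ → Normal d D δ Λ v →
  Near d (Mc D δ) (Λ v) k v (6 / δ)

end Vale.Agent.P091.T8

end
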